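import Vale.Agent.Results.P199.ElemAmenableKurosh

namespace Vale.Agent.Results.P199.CentreForm

open Vale.Agent.P199

universe u v

/-- A finite-dimensional subalgebra of a division ring is closed under inverses. -/
private theorem inv_mem_of_finDim {k : Type v} {D : Type u} [Field k] [DivisionRing D] [Algebra k D]
    (A : Subalgebra k D) [FiniteDimensional k A] {x : D} (hx : x ∈ A) : x⁻¹ ∈ A := by
  by_cases h0 : x = 0
  · subst h0
    simp
  · let L : A →ₗ[k] A := LinearMap.mulLeft k (⟨x, hx⟩ : A)
    have hinj : Function.Injective L := by
      intro a b hab
      have h1 : x * (a : D) = x * (b : D) := congrArg Subtype.val hab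
      exact Subtype.ext (mul_left_cancel₀ h0 h1)
    obtain ⟨y, hy⟩ := (LinearMap.injective_iff_surjective.1 hinj) 1
    have h1 : x * (y : D) = 1 := congrArg Subtype.val hy
    have h2 : (y : D) = x⁻¹ := by
      rw [eq_comm, inv_eq_of_mul_eq_one_right h1]
    rw [← h2]
    exact y.2

/-- **Kurosh's problem for division rings, elementary amenable case, both formulations.**

(1) (central subfield form) if `D` is algebraic over a central subfield `k` and `G` is an elementary
amenable subgroup of `Dˣ`, then every finite subset `T` of `k[G]` generates a finite-dimensional
`k`-subalgebra.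

(2) (centre form, in the words of the problem) if `D` is algebraic over its centre `F` and `S` is a
finite set of nonzero elements generating an elementary amenable subgroup of `Dˣ`, then the division
subring `F(S)` generated by `F ∪ S` is (the underlying set of) an `F`-subalgebra that is
finite-dimensional over `F`, namely `F[S]`. -/
theorem result {D : Type u} [DivisionRing D] :
    (∀ (k : Type v) [Field k] [Algebra k D] [Algebra.IsAlgebraic k D] (G : Subgroup Dˣ),
      ElemAmenable G → ∀ T : Finset D,
        (T : Set D) ⊆ Algebra.adjoin k (Units.val '' (G : Set Dˣ)) →
        FiniteDimensional k (Algebra.adjoin k (T : Set D))) ∧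
    (Algebra.IsAlgebraic (Subring.center D) D → ∀ S : Finset D, (∀ s ∈ S, s ≠ 0) →
      ElemAmenable (Subgroup.closure {g : Dˣ | (g : D) ∈ S}) →
        ((Subfield.closure ((Subring.center D : Set D) ∪ (S : Set D)) : Subfield D) : Set D)
            = (Algebra.adjoin (Subring.center D) (S : Set D) : Set D) ∧
        FiniteDimensional (Subring.center D) (Algebra.adjoin (Subring.center D) (S : Set D))) := by
  refine ⟨?_, ?_⟩
  · intro k _ _ _ G hG T hT
    exact ElemAmenableKurosh.result G hG T hT
  · intro halg S hS hG
    have hfd : FiniteDimensional (Subring.center D)
        (Algebra.adjoin (Subring.center D) (S : Set D)) := by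
      refine ElemAmenableKurosh.result (k := Subring.center D) _ hG S ?_
      intro s hs
      refine Algebra.subset_adjoin ⟨Units.mk0 s (hS s hs), ?_, rfl⟩
      exact Subgroup.subset_closure (by simpa using hs)
    refine ⟨?_, hfd⟩
    apply Set.Subset.antisymm
    · let K : Subfield D :=
        { (Algebra.adjoin (Subring.center D) (S : Set D)).toSubring with
          inv_mem' := fun x hx => inv_mem_of_finDim _ hx }
      have hle : Subfield.closure ((Subring.center D : Set D) ∪ (S : Set D)) ≤ K := by
        rw [Subfield.closure_le]
        rintro x (hx | hx)
        · exact (Algebra.adjoin (Subring.center D) (S : Set D)).algebraMap_mem ⟨x, hx⟩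
        · exact Algebra.subset_adjoin hx
      exact hle
    · intro x hx
      induction hx using Algebra.adjoin_induction with
      | mem x hx => exact Subfield.subset_closure (Or.inr hx)
      | algebraMap r => exact Subfield.subset_closure (Or.inl r.2)
      | add x y _ _ hx hy => exact add_mem hx hy
      | mul x y _ _ hx hy => exact mul_mem hx hy

end Vale.Agent.Results.P199.CentreForm
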