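import Vale.Agent.P199.ElemAmenable

namespace Vale.Agent.Results.P199.ElemAmenableKurosh

open Vale.Agent.P199

universe u v

/-- **Kurosh's problem for division rings, elementary amenable case.**
Let `D` be a division ring that is algebraic over a central subfield `k` (for instance over its
centre) and let `G` be an elementary amenable subgroup of the multiplicative group of `D`.  Then the
`k`-subalgebra `k[G]` generated by `G` is locally finite-dimensional: every finite subset `T` of
`k[G]` generates a finite-dimensional `k`-subalgebra. -/
theorem result {k : Type v} {D : Type u} [Field k] [DivisionRing D] [Algebra k D]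
    [Algebra.IsAlgebraic k D] (G : Subgroup Dˣ) (hG : ElemAmenable G) (T : Finset D)
    (hT : (T : Set D) ⊆ Algebra.adjoin k (Units.val '' (G : Set Dˣ))) :
    FiniteDimensional k (Algebra.adjoin k (T : Set D)) :=
  Module.Finite.iff_fg.mpr (locFin_galg_of_elemAmenable (k := k) G hG T hT)

end Vale.Agent.Results.P199.ElemAmenableKurosh
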