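import Vale.Agent.P199.ElemAmenable

namespace Vale.Agent.Results.P199.KuroshOriginalForm

open Vale.Agent.P199

universe u v

/-- A finite-dimensional subalgebra of a division ring is closed under inverses. -/
private lemma inv_mem_of_finite {k : Type v} {D : Type u} [Field k] [DivisionRing D] [Algebra k D]
    (A : Subalgebra k D) [FiniteDimensional k A] {x : D} (hx : x ∈ A) : x⁻¹ ∈ A := by
  by_cases h0 : x = 0
  · subst h0
    simp
  · have hinj : Function.Injective (LinearMap.mulLeft k (⟨x, hx⟩ : A)) := by
      intro a b hab
      have h1 : x * (a : D) = x * (b : D) := congrArg Subtype.val hab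
      exact Subtype.ext (mul_left_cancel₀ h0 h1)
    obtain ⟨y, hy⟩ := (LinearMap.injective_iff_surjective.mp hinj) 1
    have h2 : x * (y : D) = 1 := congrArg Subtype.val hy
    have h3 : x⁻¹ = (y : D) := by
      rw [eq_comm, ← mul_right_inj' h0, h2, mul_inv_cancel₀ h0]
    rw [h3]
    exact y.2

/-- **Kurosh's problem for division rings in both formulations of the problem, for generators
taken from the span of an elementary amenable group of units.**
`D` is a division ring algebraic over a central subfield `k` (the centre `Subring.center D` is an
admissible choice of `k`), `G` an elementary amenable subgroup of the multiplicative group and `T`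
a finite subset of `k[G]`.  Then
* `k[T]` is finite-dimensional over `k`;
* the division subring `k(T)` generated by `k` and `T` coincides with `k[T]`, so `[k(T):k]` is
  finite;
* if `T` generates `D` as a `k`-algebra, then `D` is finite-dimensional over `k`. -/
theorem result {k : Type v} {D : Type u} [Field k] [DivisionRing D] [Algebra k D]
    [Algebra.IsAlgebraic k D] (G : Subgroup Dˣ) (hG : ElemAmenable G) (T : Finset D)
    (hT : (T : Set D) ⊆ Algebra.adjoin k (Units.val '' (G : Set Dˣ))) :
    FiniteDimensional k (Algebra.adjoin k (T : Set D)) ∧
    ((Subfield.closure (Set.range (algebraMap k D) ∪ (T : Set D)) : Subfield D) : Set D)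
      = ((Algebra.adjoin k (T : Set D) : Subalgebra k D) : Set D) ∧
    (Algebra.adjoin k (T : Set D) = ⊤ → FiniteDimensional k D) := by
  have hfd : FiniteDimensional k (Algebra.adjoin k (T : Set D)) :=
    Module.Finite.iff_fg.mpr (locFin_galg_of_elemAmenable (k := k) G hG T hT)
  refine ⟨hfd, ?_, ?_⟩
  · apply Set.Subset.antisymm
    · -- the subalgebra is a division subring containing the generators
      let F : Subfield D :=
        { (Algebra.adjoin k (T : Set D)).toSubring with
          inv_mem' := fun x hx => inv_mem_of_finite (Algebra.adjoin k (T : Set D)) hx }
      have hle : Subfield.closure (Set.range (algebraMap k D) ∪ (T : Set D)) ≤ F := by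
        rw [Subfield.closure_le]
        rintro x (⟨c, rfl⟩ | hx)
        · exact (Algebra.adjoin k (T : Set D)).algebraMap_mem c
        · exact Algebra.subset_adjoin hx
      intro x hx
      exact hle hx
    · intro x hx
      have hx' : x ∈ Algebra.adjoin k (T : Set D) := hx
      induction hx' using Algebra.adjoin_induction with
      | mem y hy => exact Subfield.subset_closure (Or.inr hy)
      | algebraMap c => exact Subfield.subset_closure (Or.inl ⟨c, rfl⟩)
      | add a b _ _ ha hb => exact add_mem (ha (by assumption)) (hb (by assumption))
      | mul a b _ _ ha hb => exact mul_mem (ha (by assumption)) (hb (by assumption))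
  · intro htop
    have e : (Algebra.adjoin k (T : Set D)) ≃ₗ[k] D := by
      rw [htop]
      exact (Subalgebra.topEquiv (R := k) (A := D)).toLinearEquiv
    exact Module.Finite.equiv e

end Vale.Agent.Results.P199.KuroshOriginalForm
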