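import Vale.Agent.P199.Solvable

namespace Vale.Agent.Results.P199.SolvableKurosh

open Vale.Agent.P199

/-- **Kurosh's problem for division rings, solvable case.**
Let `D` be a division ring that is algebraic over a central subfield `k` (for instance over its
centre).  If a finite set `S` of nonzero elements of `D` generates a solvable subgroup of the
multiplicative group of `D`, then the `k`-subalgebra `k[S]` generated by `S` is
finite-dimensional over `k`. -/
theorem result {k D : Type*} [Field k] [DivisionRing D] [Algebra k D] [Algebra.IsAlgebraic k D]
    (S : Finset Dˣ) (hS : Group.IsSolvable (Subgroup.closure (S : Set Dˣ))) :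
    FiniteDimensional k (Algebra.adjoin k (Units.val '' (S : Set Dˣ))) := by
  classical
  have h := locFin_galg_of_isSolvable (k := k) (Subgroup.closure (S : Set Dˣ))
  have h2 := h (S.image Units.val) (by
    intro x hx
    rw [Finset.coe_image] at hx
    obtain ⟨u, hu, rfl⟩ := hx
    exact mem_galg (Subgroup.subset_closure hu))
  rw [Finset.coe_image] at h2
  exact Module.Finite.iff_fg.mpr h2

end Vale.Agent.Results.P199.SolvableKurosh
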